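import Vale.Agent.P088.H198.Defs

/-!
# P088, local rigidity: the pointwise equation implies the weak equation
-/

set_option linter.all false

open MeasureTheory Set Filter Topology
open scoped ContDiff Matrix

noncomputable section

namespace Vale.Agent.P088.LR

variable {n : ℕ}

/-- A smooth truncation. -/
theorem exists_trunc : ∃ T : ℂ → ℂ, ContDiff ℝ ∞ T ∧ (∀ z, ‖z‖ ≤ 1 → T z = 0) ∧
    (∀ z, 2 ≤ ‖z‖ → T z = z) := by
  let b : ContDiffBump (0 : ℂ) := ⟨1, 2, one_pos, one_lt_two⟩
  refine ⟨fun z => (1 - b z) • z, ?_, ?_, ?_⟩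
  · exact (contDiff_const.sub b.contDiff).smul contDiff_id
  · intro z hz
    have : b z = 1 := b.one_of_mem_closedBall (by simpa [b] using hz)
    simp [this]
  · intro z hz
    have : b z = 0 := b.zero_of_le_dist (by simpa [b] using hz)
    simp [this]

/-- Its derivative is bounded. -/
theorem trunc_bound {T : ℂ → ℂ} (hT : ContDiff ℝ ∞ T) (h2 : ∀ z, 2 ≤ ‖z‖ → T z = z) :
    (∀ z, 2 < ‖z‖ → fderiv ℝ T z = ContinuousLinearMap.id ℝ ℂ) ∧
    ∃ M : ℝ, 0 ≤ M ∧ ∀ z, ‖fderiv ℝ T z‖ ≤ M := by
  have h1 : ∀ z, 2 < ‖z‖ → fderiv ℝ T z = ContinuousLinearMap.id ℝ ℂ := by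
    intro z hz
    have : T =ᶠ[𝓝 z] id := by
      have ho : IsOpen {w : ℂ | 2 < ‖w‖} := isOpen_lt continuous_const continuous_norm
      filter_upwards [ho.mem_nhds hz] with w hw
      exact h2 w (le_of_lt hw)
    rw [this.fderiv_eq]
    exact fderiv_id
  refine ⟨h1, ?_⟩
  have hc : Continuous (fderiv ℝ T) := hT.continuous_fderiv (by simp)
  obtain ⟨M, hM⟩ := (isCompact_closedBall (0 : ℂ) 2).exists_bound_of_continuousOn hc.continuousOn
  refine ⟨max M 1, le_max_of_le_right zero_le_one, fun z => ?_⟩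
  by_cases hz : ‖z‖ ≤ 2
  · exact (hM z (by simpa using hz)).trans (le_max_left _ _)
  · rw [h1 z (not_le.1 hz)]
    exact ContinuousLinearMap.norm_id_le.trans (le_max_right _ _)

/-- The gradient of a real function vanishes a.e. on its zero set. -/
theorem ae_fderiv_real (g : V n → ℝ) (hg : Differentiable ℝ g) :
    ∀ᵐ x : V n, g x = 0 → fderiv ℝ g x = 0 := by
  have hs : MeasurableSet {x : V n | g x = 0} := (isClosed_eq hg.continuous continuous_const).measurableSet
  have key : ∀ᵐ x : V n ∂(volume.restrict {x : V n | g x = 0}), fderiv ℝ g x = 0 := by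
    have ha : ApproximatesLinearOn (fun x : V n => (fun _ => g x : V n)) (0 : V n →L[ℝ] V n)
        {x : V n | g x = 0} 0 := by
      intro x hx y hy
      have h1 : (fun _ => g x : V n) - (fun _ => g y : V n) - (0 : V n →L[ℝ] V n) (x - y) = 0 := by
        funext i
        simp only [Set.mem_setOf_eq] at hx hy
        simp [hx, hy]
      simp only [h1]
      simp
    have hf := ha.norm_fderiv_sub_le volume hs
      (fun x => ContinuousLinearMap.pi fun _ => fderiv ℝ g x) (by
        intro x hx
        exact (hasFDerivAt_pi.2 fun _ => (hg x).hasFDerivAt).hasFDerivWithinAt)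
    filter_upwards [hf] with x hx
    rcases n with _ | n
    · ext v
      rw [Subsingleton.elim v 0, map_zero, map_zero]
    · have h0 : (ContinuousLinearMap.pi fun _ => fderiv ℝ g x : V (n + 1) →L[ℝ] V (n + 1)) = 0 := by
        have := le_antisymm hx bot_le
        simpa using this
      ext v
      have := congrFun (congrArg (fun L : V (n + 1) →L[ℝ] V (n + 1) => L v) h0) 0
      simpa using this
  exact (ae_restrict_iff' hs).1 key

/-- The gradient of a complex function vanishes a.e. on its zero set. -/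
theorem ae_fderiv_complex (g : V n → ℂ) (hg : Differentiable ℝ g) :
    ∀ᵐ x : V n, g x = 0 → fderiv ℝ g x = 0 := by
  have hr : Differentiable ℝ (fun x => (g x).re) := fun x =>
    (Complex.reCLM.hasFDerivAt.comp x (hg x).hasFDerivAt).differentiableAt
  have hi : Differentiable ℝ (fun x => (g x).im) := fun x =>
    (Complex.imCLM.hasFDerivAt.comp x (hg x).hasFDerivAt).differentiableAt
  filter_upwards [ae_fderiv_real _ hr, ae_fderiv_real _ hi] with x h1 h2 h0
  have e1 : fderiv ℝ (fun x => (g x).re) x = Complex.reCLM.comp (fderiv ℝ g x) :=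
    (Complex.reCLM.hasFDerivAt.comp x (hg x).hasFDerivAt).fderiv
  have e2 : fderiv ℝ (fun x => (g x).im) x = Complex.imCLM.comp (fderiv ℝ g x) :=
    (Complex.imCLM.hasFDerivAt.comp x (hg x).hasFDerivAt).fderiv
  have f1 := h1 (by simp [h0])
  have f2 := h2 (by simp [h0])
  rw [e1] at f1
  rw [e2] at f2
  ext v
  have g1 := congrArg (fun L : V n →L[ℝ] ℝ => L v) f1
  have g2 := congrArg (fun L : V n →L[ℝ] ℝ => L v) f2
  apply Complex.ext
  · simpa using g1
  · simpa using g2

theorem contDiff_pd {f : V n → ℂ} (hf : ContDiff ℝ ∞ f) (i : Fin n) : ContDiff ℝ ∞ (pd i f) := by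
  unfold pd
  exact (hf.fderiv_right (m := ∞) (by simp)).clm_apply contDiff_const

/-- The truncated test function. -/
def cut (Ω : Set (V n)) (T : ℂ → ℂ) (c : ℝ) (φ : V n → ℂ) (x : V n) : ℂ :=
  open scoped Classical in if x ∈ Ω then c⁻¹ • T (c • φ x) else 0

theorem cut_facts {Ω : Set (V n)} (hΩ : IsOpen Ω) (hb : Bornology.IsBounded Ω) {T : ℂ → ℂ}
    (hT : ContDiff ℝ ∞ T) (h1 : ∀ z, ‖z‖ ≤ 1 → T z = 0) {c : ℝ} (hc : 0 < c) {φ : V n → ℂ}
    (hφ : ContDiff ℝ ∞ φ) (h0 : ∀ x ∈ frontier Ω, φ x = 0) :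
    ∃ K : Set (V n), IsCompact K ∧ K ⊆ Ω ∧ (∀ x ∉ K, cut Ω T c φ x = 0) ∧
      ContDiff ℝ ∞ (cut Ω T c φ) ∧
      ∀ x ∈ Ω, ∀ j, pd j (cut Ω T c φ) x = fderiv ℝ T (c • φ x) (pd j φ x) := by
  let K : Set (V n) := closure Ω ∩ {x | 1 ≤ ‖c • φ x‖}
  have hKc : IsClosed K := isClosed_closure.inter
    (isClosed_le continuous_const (continuous_norm.comp (hφ.continuous.const_smul c)))
  have hKΩ : K ⊆ Ω := by
    rintro x ⟨hx1, hx2⟩
    by_contra hx
    have hf : x ∈ frontier Ω := by
      rw [hΩ.frontier_eq]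
      exact ⟨hx1, hx⟩
    simp only [Set.mem_setOf_eq, h0 x hf, smul_zero, norm_zero] at hx2
    linarith
  have hz : ∀ x ∉ K, cut Ω T c φ x = 0 := by
    intro x hx
    unfold cut
    by_cases hxΩ : x ∈ Ω
    · rw [if_pos hxΩ]
      have : ‖c • φ x‖ ≤ 1 := by
        by_contra hlt
        exact hx ⟨subset_closure hxΩ, le_of_lt (not_le.1 hlt)⟩
      rw [h1 _ this, smul_zero]
    · rw [if_neg hxΩ]
  have hsm : ContDiff ℝ ∞ (fun x => c⁻¹ • T (c • φ x)) :=
    (hT.comp (hφ.const_smul c)).const_smul c⁻¹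
  have hev : ∀ x ∈ Ω, cut Ω T c φ =ᶠ[𝓝 x] fun x => c⁻¹ • T (c • φ x) := by
    intro x hx
    filter_upwards [hΩ.mem_nhds hx] with y hy
    unfold cut
    rw [if_pos hy]
  refine ⟨K, ?_, hKΩ, hz, ?_, ?_⟩
  · exact (hb.isCompact_closure).inter_right
      (isClosed_le continuous_const (continuous_norm.comp (hφ.continuous.const_smul c)))
  · rw [contDiff_iff_contDiffAt]
    intro x
    by_cases hx : x ∈ Ω
    · exact (hsm.contDiffAt).congr_of_eventuallyEq (hev x hx)
    · have hxK : x ∈ Kᶜ := fun h => hx (hKΩ h)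
      have : cut Ω T c φ =ᶠ[𝓝 x] fun _ => (0 : ℂ) := by
        filter_upwards [hKc.isOpen_compl.mem_nhds hxK] with y hy
        exact hz y hy
      exact contDiffAt_const.congr_of_eventuallyEq this
  · intro x hx j
    unfold pd
    rw [(hev x hx).fderiv_eq]
    have hφx : HasFDerivAt φ (fderiv ℝ φ x) x := (hφ.differentiable (by simp) x).hasFDerivAt
    have hTx : HasFDerivAt T (fderiv ℝ T (c • φ x)) (c • φ x) :=
      (hT.differentiable (by simp) _).hasFDerivAt
    have hcomp := (HasFDerivAt.comp x hTx (hφx.const_smul c)).const_smul c⁻¹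
    have e := hcomp.fderiv
    have e2 : fderiv ℝ (fun x => c⁻¹ • T (c • φ x)) x
        = c⁻¹ • (fderiv ℝ T (c • φ x)).comp (c • fderiv ℝ φ x) := e
    rw [e2]
    simp only [ContinuousLinearMap.smul_apply, ContinuousLinearMap.comp_apply, map_smul]
    rw [smul_smul, inv_mul_cancel₀ hc.ne', one_smul]

/-- The flux. -/
def flx (s : MF n) (W : V n → ℂ) (j : Fin n) (y : V n) : ℂ := ∑ i, (s y j i : ℂ) * pd i W y

theorem contDiff_flx {s : MF n} (hs : SmM s) {W : V n → ℂ} (hW : ContDiff ℝ ∞ W) (j : Fin n) :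
    ContDiff ℝ ∞ (flx s W j) := by
  unfold flx
  apply ContDiff.sum
  intro i _
  exact (Complex.ofRealCLM.contDiff.comp (hs j i)).mul (contDiff_pd hW i)

/-- Integration by parts with compactly supported test functions. -/
theorem ibp_zero {Ω K : Set (V n)} (hKc : IsCompact K) (hK : K ⊆ Ω) {s : MF n} (hs : SmM s)
    {W ψ : V n → ℂ} (hW : ContDiff ℝ ∞ W) (hψ : ContDiff ℝ ∞ ψ) (hz : ∀ x ∉ K, ψ x = 0)
    (hdv : ∀ x ∈ Ω, dv s W x = 0) : ∫ x in Ω, ∑ j, flx s W j x * pd j ψ x = 0 := by
  have hcs : HasCompactSupport ψ := HasCompactSupport.intro hKc hz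
  have hpz : ∀ x ∉ K, ∀ j, pd j ψ x = 0 := by
    intro x hx j
    have : ψ =ᶠ[𝓝 x] fun _ => (0 : ℂ) := by
      filter_upwards [hKc.isClosed.isOpen_compl.mem_nhds hx] with y hy
      exact hz y hy
    unfold pd
    rw [this.fderiv_eq]
    simp
  have hpcs : ∀ j, HasCompactSupport (pd j ψ) := fun j =>
    HasCompactSupport.intro hKc fun x hx => hpz x hx j
  have h1 : ∫ x in Ω, ∑ j, flx s W j x * pd j ψ x = ∫ x, ∑ j, flx s W j x * pd j ψ x := by
    apply setIntegral_eq_integral_of_forall_compl_eq_zero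
    intro x hx
    apply Finset.sum_eq_zero
    intro j _
    rw [hpz x (fun h => hx (hK h)) j, mul_zero]
  rw [h1, integral_finsetSum]
  · have h2 : ∀ j, ∫ x, flx s W j x * pd j ψ x = - ∫ x, pd j (flx s W j) x * ψ x := by
      intro j
      have hF := contDiff_flx hs hW j
      have hc1 : Integrable (fun x => fderiv ℝ (flx s W j) x (Pi.single j 1) * ψ x) := by
        have : Continuous (fun x => fderiv ℝ (flx s W j) x (Pi.single j 1) * ψ x) :=
          (contDiff_pd hF j).continuous.mul hψ.continuous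
        exact this.integrable_of_hasCompactSupport hcs.mul_left
      have hc2 : Integrable (fun x => flx s W j x * fderiv ℝ ψ x (Pi.single j 1)) := by
        have : Continuous (fun x => flx s W j x * fderiv ℝ ψ x (Pi.single j 1)) :=
          hF.continuous.mul (contDiff_pd hψ j).continuous
        exact this.integrable_of_hasCompactSupport (hpcs j).mul_left
      have hc3 : Integrable (fun x => flx s W j x * ψ x) := by
        have : Continuous (fun x => flx s W j x * ψ x) := hF.continuous.mul hψ.continuous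
        exact this.integrable_of_hasCompactSupport hcs.mul_left
      exact integral_mul_fderiv_eq_neg_fderiv_mul_of_integrable hc1 hc2 hc3
        (fun x _ => hF.differentiable (by simp) x) (fun x _ => hψ.differentiable (by simp) x)
    simp_rw [h2]
    rw [Finset.sum_neg_distrib, ← integral_finsetSum]
    · have h3 : ∀ x, ∑ j, pd j (flx s W j) x * ψ x = 0 := by
        intro x
        rw [← Finset.sum_mul]
        by_cases hx : x ∈ Ω
        · have := hdv x hx
          unfold dv at this
          have e : ∑ j, pd j (flx s W j) x = 0 := this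
          rw [e, zero_mul]
        · rw [hz x (fun h => hx (hK h)), mul_zero]
      simp [h3]
    · intro j _
      have : Continuous (fun x => pd j (flx s W j) x * ψ x) :=
        (contDiff_pd (contDiff_flx hs hW j) j).continuous.mul hψ.continuous
      exact this.integrable_of_hasCompactSupport hcs.mul_left
  · intro j _
    have : Continuous (fun x => flx s W j x * pd j ψ x) :=
      (contDiff_flx hs hW j).continuous.mul (contDiff_pd hψ j).continuous
    exact this.integrable_of_hasCompactSupport (hpcs j).mul_left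

/-- The limit. -/
theorem weak_aux {Ω : Set (V n)} (hΩ : IsOpen Ω) (hb : Bornology.IsBounded Ω)
    {s : MF n} (hs : SmM s) {W φ : V n → ℂ} (hW : ContDiff ℝ ∞ W) (hφ : ContDiff ℝ ∞ φ)
    (hdv : ∀ x ∈ Ω, dv s W x = 0) (h0 : ∀ x ∈ frontier Ω, φ x = 0) :
    ∫ x in Ω, ∑ j, flx s W j x * pd j φ x = 0 := by
  obtain ⟨T, hT, hT1, hT2⟩ := exists_trunc
  obtain ⟨hTid, M, hM0, hM⟩ := trunc_bound hT hT2
  have hTc : Continuous (fderiv ℝ T) := hT.continuous_fderiv (by simp)
  let F : ℕ → V n → ℂ := fun k x => ∑ j, flx s W j x * fderiv ℝ T (((k : ℝ) + 1) • φ x) (pd j φ x)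
  have hF0 : ∀ k, ∫ x in Ω, F k x = 0 := by
    intro k
    have hk : (0 : ℝ) < (k : ℝ) + 1 := by positivity
    obtain ⟨K, hKc, hKΩ, hz, hsm, hpd⟩ := cut_facts hΩ hb hT hT1 hk hφ h0
    have := ibp_zero hKc hKΩ hs hW hsm hz hdv
    rw [← this]
    apply setIntegral_congr_fun hΩ.measurableSet
    intro x hx
    simp only [F]
    apply Finset.sum_congr rfl
    intro j _
    rw [hpd x hx j]
  have hlim : Tendsto (fun k => ∫ x in Ω, F k x) atTop
      (𝓝 (∫ x in Ω, ∑ j, flx s W j x * pd j φ x)) := by
    apply tendsto_integral_of_dominated_convergence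
      (fun x => ∑ j, ‖flx s W j x‖ * (M * ‖pd j φ x‖))
    · intro k
      apply Continuous.aestronglyMeasurable
      apply continuous_finset_sum
      intro j _
      refine (contDiff_flx hs hW j).continuous.mul ?_
      exact (hTc.comp (hφ.continuous.const_smul ((k : ℝ) + 1))).clm_apply
        (contDiff_pd hφ j).continuous
    · have hc : Continuous (fun x => ∑ j, ‖flx s W j x‖ * (M * ‖pd j φ x‖)) := by
        apply continuous_finset_sum
        intro j _
        exact (contDiff_flx hs hW j).continuous.norm.mul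
          (continuous_const.mul (contDiff_pd hφ j).continuous.norm)
      exact (hc.continuousOn.integrableOn_compact hb.isCompact_closure).mono_set subset_closure
    · intro k
      refine Eventually.of_forall fun x => ?_
      refine (norm_sum_le _ _).trans (Finset.sum_le_sum fun j _ => ?_)
      rw [norm_mul]
      refine mul_le_mul_of_nonneg_left ?_ (norm_nonneg _)
      exact ((fderiv ℝ T _).le_opNorm _).trans
        (mul_le_mul_of_nonneg_right (hM _) (norm_nonneg _))
    · have hae := ae_restrict_of_ae (s := Ω) (ae_fderiv_complex φ (hφ.differentiable (by simp)))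
      filter_upwards [hae] with x hx
      by_cases hx0 : φ x = 0
      · have hd := hx hx0
        have : ∀ j, pd j φ x = 0 := by
          intro j
          unfold pd
          rw [hd]
          simp
        simp [F, this]
      · have hpos : 0 < ‖φ x‖ := norm_pos_iff.2 hx0
        obtain ⟨N, hN⟩ := exists_nat_gt (2 / ‖φ x‖)
        apply tendsto_const_nhds.congr'
        filter_upwards [eventually_ge_atTop N] with k hk
        have hkN : (N : ℝ) ≤ k := by exact_mod_cast hk
        have hbig : 2 < ‖((k : ℝ) + 1) • φ x‖ := by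
          rw [norm_smul, Real.norm_of_nonneg (by positivity)]
          rw [div_lt_iff₀ hpos] at hN
          nlinarith
        simp only [F]
        rw [hTid _ hbig]
        simp
  simp_rw [hF0] at hlim
  exact (tendsto_nhds_unique hlim tendsto_const_nhds)

/-- Row WEAK. -/
theorem weak : RowWEAK := by
  intro n Ω hΩ hb s hs hsym W φ hW hφ hdv h0
  rw [← weak_aux hΩ hb hs hW hφ hdv h0]
  unfold bl
  congr 1
  funext x
  rw [Finset.sum_comm]
  apply Finset.sum_congr rfl
  intro j _
  unfold flx
  rw [Finset.sum_mul]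
  apply Finset.sum_congr rfl
  intro i _
  have : s x j i = s x i j := (hsym x).apply i j
  rw [this]

end Vale.Agent.P088.LR
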